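import Vale.Agent.P032.H617.BD.Cnf
import Vale.Agent.P032.H617.BD.D0
import Vale.Agent.P032.H617.BD.D1
import Vale.Agent.P032.H617.BD.D2
import Vale.Agent.P032.H617.BD.D3
import Vale.Agent.P032.H617.BD.D4
import Vale.Agent.P032.H617.BD.D5
import Vale.Agent.P032.H617.BD.D6
import Vale.Agent.P032.H617.BD.D7
import Vale.Agent.P032.H617.BD.D8
import Vale.Agent.P032.H617.BD.D9
import Vale.Agent.P032.H617.BD.D10
import Vale.Agent.P032.H617.BD.D11
import Vale.Agent.P032.H617.BD.D12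
import Vale.Agent.P032.H617.BD.D13
import Vale.Agent.P032.H617.BD.D14
import Vale.Agent.P032.H617.BD.D15
import Vale.Agent.P032.H617.BD.D16
import Vale.Agent.P032.H617.BD.D17
import Vale.Agent.P032.H617.BD.D18
import Vale.Agent.P032.H617.BD.D19
import Vale.Agent.P032.H617.BD.D20
import Vale.Agent.P032.H617.BD.D21
import Vale.Agent.P032.H617.BD.D22
import Vale.Agent.P032.H617.BD.D23
import Vale.Agent.P032.H617.BD.D24
import Vale.Agent.P032.H617.BD.D25
import Vale.Agent.P032.H617.BD.D26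
import Vale.Agent.P032.H617.BD.D27
import Vale.Agent.P032.H617.BD.D28
import Vale.Agent.P032.H617.BD.D29
import Vale.Agent.P032.H617.BD.D30
import Vale.Agent.P032.H617.BD.D31

namespace Vale.Agent.P032.H617.BD
open Vale.Agent.P032.H859.Rup

def e4_0 : Tr := .n d0 d16

def e4_1 : Tr := .n d1 d17

def e4_2 : Tr := .n d2 d18

def e4_3 : Tr := .n d3 d19

def e4_4 : Tr := .n d4 d20

def e4_5 : Tr := .n d5 d21

def e4_6 : Tr := .n d6 d22

def e4_7 : Tr := .n d7 d23

def e4_8 : Tr := .n d8 d24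

def e4_9 : Tr := .n d9 d25

def e4_10 : Tr := .n d10 d26

def e4_11 : Tr := .n d11 d27

def e4_12 : Tr := .n d12 d28

def e4_13 : Tr := .n d13 d29

def e4_14 : Tr := .n d14 d30

def e4_15 : Tr := .n d15 d31

def e3_0 : Tr := .n e4_0 e4_8

def e3_1 : Tr := .n e4_1 e4_9

def e3_2 : Tr := .n e4_2 e4_10

def e3_3 : Tr := .n e4_3 e4_11

def e3_4 : Tr := .n e4_4 e4_12

def e3_5 : Tr := .n e4_5 e4_13

def e3_6 : Tr := .n e4_6 e4_14

def e3_7 : Tr := .n e4_7 e4_15

def e2_0 : Tr := .n e3_0 e3_4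

def e2_1 : Tr := .n e3_1 e3_5

def e2_2 : Tr := .n e3_2 e3_6

def e2_3 : Tr := .n e3_3 e3_7

def e1_0 : Tr := .n e2_0 e2_2

def e1_1 : Tr := .n e2_1 e2_3

def e0_0 : Tr := .n e1_0 e1_1

/-- the learned clauses -/
def db : Tr := e0_0

/-- the mask of the positive literals -/
def E : Nat := mkE 833

theorem hE : Even' E := even_mkE _

noncomputable def L : Nat → Nat := look (getC cnfT) 7077 e0_0

end Vale.Agent.P032.H617.BD
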