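import Vale.Agent.P032.H617.BD.Cnf
import Vale.Agent.P032.H617.BS.Row

namespace Vale.Agent.P032.H617.BD
open Vale.Agent.P032.H859.Rup Vale.Agent.P032.H617.BS

theorem a3_3 : allb tst cb3_3 = true := by decide +kernel

end Vale.Agent.P032.H617.BD
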