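import Vale.Agent.P032.H617.BD.Base

namespace Vale.Agent.P032.H617.BD
open Vale.Agent.P032.H859.Rup

theorem r5_21 : run E L 7077 d21 21 32 = true := by decide +kernel

end Vale.Agent.P032.H617.BD
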